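import Vale.Agent.P088.R2.H459.DM.Defs

/-! The smooth extension of a function with bounded derivatives to the closure of a convex
open set. -/

set_option autoImplicit false

namespace Vale.Agent.P088.R2.H856.DM

open Set Filter Topology Vale.Agent.P088.DM
open scoped ContDiff NNReal

noncomputable section

variable {X E : Type*} [NormedAddCommGroup X] [NormedSpace ℝ X]
  [NormedAddCommGroup E] [NormedSpace ℝ E] {J : Type*}

/-- The coordinate functional as a continuous linear map. -/
def crd [FiniteDimensional ℝ X] (b : Module.Basis J ℝ X) (i : J) : X →L[ℝ] ℝ :=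
  LinearMap.toContinuousLinearMap (b.coord i)

theorem clm_eq_sum [FiniteDimensional ℝ X] [Fintype J] (b : Module.Basis J ℝ X)
    (A : X →L[ℝ] E) : A = ∑ i, (crd b i).smulRight (A (b i)) := by
  ext x
  rw [sum_apply]
  conv_lhs => rw [← b.sum_repr x]
  rw [map_sum]
  refine Finset.sum_congr rfl fun i _ => ?_
  rw [map_smul]
  rfl

theorem fderiv_eq_sum [FiniteDimensional ℝ X] [Fintype J] (b : Module.Basis J ℝ X)
    (v : X → E) (y : X) : fderiv ℝ v y = ∑ i, (crd b i).smulRight (dd b i v y) :=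
  clm_eq_sum b (fderiv ℝ v y)

theorem dd_contDiffOn (b : Module.Basis J ℝ X) {S : Set X} (hS : IsOpen S) {v : X → E}
    (hv : ContDiffOn ℝ ∞ v S) (i : J) : ContDiffOn ℝ ∞ (dd b i v) S :=
  (hv.fderiv_of_isOpen hS (m := ∞) (by simp)).clm_apply contDiffOn_const

theorem lip_of_bdd [FiniteDimensional ℝ X] [Fintype J] (b : Module.Basis J ℝ X) {S : Set X}
    (hS : IsOpen S) (hc : Convex ℝ S) {v : X → E} (hv : ContDiffOn ℝ ∞ v S)
    (hb : ∀ i : J, ∃ M : ℝ, ∀ y ∈ S, ‖dd b i v y‖ ≤ M) :
    ∃ C : ℝ≥0, LipschitzOnWith C v S := by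
  choose M hM using hb
  refine ⟨∑ i, ‖crd b i‖₊ * (M i).toNNReal, ?_⟩
  refine hc.lipschitzOnWith_of_nnnorm_fderiv_le
    (fun x hx => (hv.contDiffAt (hS.mem_nhds hx)).differentiableAt (by simp)) ?_
  intro x hx
  rw [fderiv_eq_sum b v x]
  refine (nnnorm_sum_le _ _).trans (Finset.sum_le_sum fun i _ => ?_)
  rw [← NNReal.coe_le_coe]
  rw [NNReal.coe_mul, coe_nnnorm, coe_nnnorm, ContinuousLinearMap.norm_smulRight_apply]
  refine mul_le_mul_of_nonneg_left ?_ (norm_nonneg _)
  exact (hM i x hx).trans (Real.le_coe_toNNReal _)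

theorem tendsto_of_lip [CompleteSpace E] {S : Set X} {v : X → E} {C : ℝ≥0}
    (h : LipschitzOnWith C v S) {x : X} (hx : x ∈ closure S) :
    ∃ e, Tendsto v (𝓝[S] x) (𝓝 e) := by
  have : NeBot (𝓝[S] x) := mem_closure_iff_nhdsWithin_neBot.1 hx
  have hC : Cauchy (𝓝[S] x) := cauchy_nhds.mono nhdsWithin_le_nhds
  have h2 : Cauchy (map v (𝓝[S] x)) :=
    hC.map_of_le h.uniformContinuousOn (inf_le_right)
  exact CompleteSpace.complete h2

theorem extendFrom_tendsto [CompleteSpace E] {S : Set X} {v : X → E} {C : ℝ≥0}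
    (h : LipschitzOnWith C v S) {x : X} (hx : x ∈ closure S) :
    Tendsto v (𝓝[S] x) (𝓝 (extendFrom S v x)) :=
  tendsto_extendFrom (tendsto_of_lip h hx)

theorem extendFrom_on {S : Set X} {v : X → E} (hv : ContinuousOn v S) {x : X}
    (hx : x ∈ S) : extendFrom S v x = v x :=
  extendFrom_eq (subset_closure hx) (hv x hx)

/-- One step: the extension is differentiable on the closure, with the extensions of the
partial derivatives as derivatives. -/
theorem hasFDeriv_ext [CompleteSpace E] [FiniteDimensional ℝ X] [Fintype J]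
    (b : Module.Basis J ℝ X) {S : Set X} (hS : IsOpen S) (hc : Convex ℝ S) {v : X → E}
    (hv : ContDiffOn ℝ ∞ v S) (hb : ∀ l : List J, ∃ M : ℝ, ∀ y ∈ S, ‖ddL b l v y‖ ≤ M)
    {x : X} (hx : x ∈ closure S) :
    HasFDerivWithinAt (extendFrom S v)
      (∑ i, (crd b i).smulRight (extendFrom S (dd b i v) x)) (closure S) x := by
  obtain ⟨C, hC⟩ := lip_of_bdd b hS hc hv (fun i => hb [i])
  have hvc : ContinuousOn v S := hv.continuousOn
  have heq : ∀ y ∈ S, extendFrom S v =ᶠ[𝓝 y] v := fun y hy => by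
    filter_upwards [hS.mem_nhds hy] with z hz using extendFrom_on hvc hz
  have hcl : ContinuousOn (extendFrom S v) (closure S) :=
    continuousOn_extendFrom subset_rfl (fun y hy => tendsto_of_lip hC hy)
  apply hasFDerivWithinAt_closure_of_tendsto_fderiv (s := S)
  · intro y hy
    exact ((((hv.contDiffAt (hS.mem_nhds hy)).differentiableAt (by simp)).congr_of_eventuallyEq
      (heq y hy))).differentiableWithinAt
  · exact hc
  · exact hS
  · intro y hy
    exact (hcl y hy).mono subset_closure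
  · have h1 : Tendsto (fun y => ∑ i, (crd b i).smulRight (dd b i v y)) (𝓝[S] x)
        (𝓝 (∑ i, (crd b i).smulRight (extendFrom S (dd b i v) x))) := by
      refine tendsto_finsetSum _ fun i _ => ?_
      obtain ⟨Ci, hCi⟩ := lip_of_bdd b hS hc (dd_contDiffOn b hS hv i)
        (fun j => hb [i, j])
      have h2 := extendFrom_tendsto hCi hx
      exact ((ContinuousLinearMap.smulRightL ℝ X E (crd b i)).continuous.tendsto _).comp h2
    refine h1.congr' ?_
    filter_upwards [self_mem_nhdsWithin] with y hy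
    rw [(heq y hy).fderiv_eq, fderiv_eq_sum b v y]

theorem ext_nat [CompleteSpace E] [FiniteDimensional ℝ X] [Fintype J]
    (b : Module.Basis J ℝ X) {S : Set X} (hS : IsOpen S) (hc : Convex ℝ S) (k : ℕ) :
    ∀ v : X → E, ContDiffOn ℝ ∞ v S →
      (∀ l : List J, ∃ M : ℝ, ∀ y ∈ S, ‖ddL b l v y‖ ≤ M) →
      ContDiffOn ℝ (k : ℕ∞ω) (extendFrom S v) (closure S) := by
  induction k with
  | zero =>
    intro v hv hb
    rw [Nat.cast_zero, contDiffOn_zero]
    obtain ⟨C, hC⟩ := lip_of_bdd b hS hc hv (fun i => hb [i])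
    exact continuousOn_extendFrom subset_rfl (fun y hy => tendsto_of_lip hC hy)
  | succ k ih =>
    intro v hv hb
    rw [Nat.cast_succ, contDiffOn_succ_iff_hasFDerivWithinAt (by simp)]
    intro x hx
    refine ⟨closure S, ?_, fun h => absurd h (by simp),
      fun y => ∑ i, (crd b i).smulRight (extendFrom S (dd b i v) y), ?_, ?_⟩
    · rw [insert_eq_of_mem hx]; exact self_mem_nhdsWithin
    · intro y hy
      exact hasFDeriv_ext b hS hc hv hb hy
    · refine ContDiffOn.sum fun i _ => ?_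
      exact contDiffOn_const.smulRight
        (ih (dd b i v) (dd_contDiffOn b hS hv i) (fun l => hb (i :: l)))

/-- The extension theorem. -/
theorem ext_of_bdd [CompleteSpace E] [FiniteDimensional ℝ X] [Fintype J]
    (b : Module.Basis J ℝ X) {S : Set X} (hS : IsOpen S) (hc : Convex ℝ S) (v : X → E)
    (hv : ContDiffOn ℝ ∞ v S)
    (hb : ∀ l : List J, ∃ M : ℝ, ∀ y ∈ S, ‖ddL b l v y‖ ≤ M) :
    ContDiffOn ℝ ∞ (extendFrom S v) (closure S) ∧ ∀ y ∈ S, extendFrom S v y = v y :=
  ⟨contDiffOn_infty.2 fun k => ext_nat b hS hc k v hv hb,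
    fun _ hy => extendFrom_on hv.continuousOn hy⟩

end

end Vale.Agent.P088.R2.H856.DM
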