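import Vale.Agent.P088.R2.H856.DM.Row7
import Vale.Agent.P088.R2.H459.DM.Row8

/-! Rows 7 and 8 together: smoothness up to the face for all systems of the class, from row 6. -/

set_option autoImplicit false

namespace Vale.Agent.P088.R2.H856.DM

open Set Filter Topology MeasureTheory
open scoped ContDiff NNReal ENNReal
open Vale.Agent.P088.DC

noncomputable section

namespace Loc

/-- Row 6: the tangential derivatives stay in the class. -/
def Row6 (n : ℕ) [NeZero n] : Prop :=
  ∀ (ι : Type) [Fintype ι] (a : Fin n → Fin n → En n → ℝ) (W : ι → En n → ℝ) (r r' : ℝ),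
    Ell r a → Cl r a W → r' < r → 0 < r' → Cl r' a (W1 W)

/-- The local regularity statement. -/
def Reg (n : ℕ) [NeZero n] : Prop :=
  ∀ (ι : Type) [Fintype ι] (r : ℝ) (a : Fin n → Fin n → En n → ℝ) (W : ι → En n → ℝ), 0 < r →
    Ell r a → Cl r a W → ∀ r', 0 < r' → r' < r → ∀ α, Cf r' (W α)

theorem pdL_eq {n : ℕ} [NeZero n] (l : List (Fin n)) :
    ∀ v : En n → ℝ, pdL ee l v = Vale.Agent.P088.DM.ddL (Vale.Agent.P088.DM.eb n) l v := by
  induction l with
  | nil => intro v; rfl
  | cons i l ih =>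
    intro v
    have h : pdv ee i v = Vale.Agent.P088.DM.dd (Vale.Agent.P088.DM.eb n) i v := by
      funext y
      simp only [pdv, Vale.Agent.P088.DM.dd, Vale.Agent.P088.DM.eb_apply, ee]
    change pdL ee l (pdv ee i v) = Vale.Agent.P088.DM.ddL (Vale.Agent.P088.DM.eb n) l
      (Vale.Agent.P088.DM.dd (Vale.Agent.P088.DM.eb n) i v)
    rw [ih, h]

/-- Rows 7 + 8. -/
theorem reg_of_row6 {n : ℕ} [NeZero n] (h6 : Row6 n) : Reg n := by
  intro ι _ r a W _ hE hW r' hr' hr α
  obtain ⟨s, hs1, hs2⟩ := exists_between hr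
  have hs : 0 < s := hr'.trans hs1
  have h7 : ∀ l : List (Fin n), MemLp (pdL ee l (W α)) 2 (volume.restrict (Uh s)) := fun l =>
    row7_list (fun {ι} _ {W} {r} {r'} hE hW h h' => h6 ι a W r r' hE hW h h') hE hW hs2 hs α l
  obtain ⟨g, hg, he⟩ := Vale.Agent.P088.DM.row8 (r := s) (r' := r') hs1 (W α)
    ((hW.sm α).mono (U_mono hs2.le)) (fun l => by
      rw [← pdL_eq]; exact h7 l)
  exact ⟨g, hg, he.symm⟩

end Loc

end

end Vale.Agent.P088.R2.H856.DM
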