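import Vale.Agent.P088.R2.H856.DM.Reg
import Vale.Agent.P088.R2.H850.DM.N2

/-! Row 6 from the uniform bound of the tangential difference quotients of the gradient. -/

set_option autoImplicit false

namespace Vale.Agent.P088.R2.H856.DM

open Set Filter Topology MeasureTheory
open scoped ContDiff NNReal ENNReal
open Vale.Agent.P088.DC

noncomputable section

namespace Loc

variable {n : ℕ} [NeZero n]

/-- The equation part of the class. -/
def EQN {ι : Type} [Fintype ι] (r : ℝ) (a : Fin n → Fin n → En n → ℝ) (W : ι → En n → ℝ) : Prop :=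
  ∃ (B : ι → ι → Fin n → En n → ℝ) (C : ι → ι → En n → ℝ) (F : ι → En n → ℝ),
    (∀ α β i, Cf r (B α β i)) ∧ (∀ α β, Cf r (C α β)) ∧ (∀ α, Cf r (F α)) ∧
    ∀ α, ∀ y ∈ Uh r, ∑ i, ∑ j, a i j y * dd i (dd j (W α)) y =
      ∑ i, ∑ β, B α β i y * dd i (W β) y + ∑ β, C α β y * W β y + F α y

/-- The uniform bound of the difference quotients. -/
def DqB (n : ℕ) [NeZero n] : Prop :=
  ∀ (ι : Type) [Fintype ι] (r r' : ℝ) (a : Fin n → Fin n → En n → ℝ) (W : ι → En n → ℝ),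
    Ell r a → Cl r a W → 0 < r' → r' < r → ∀ t : Fin n, t ≠ 0 →
    ∃ K : ℝ≥0∞, K ≠ ⊤ ∧ ∃ δ > 0, r' + δ ≤ r ∧ ∀ h, 0 < h → h < δ → ∀ i α,
      ∫⁻ y in Uh r', ENNReal.ofReal (((dd i (W α) (y + h • ee t) - dd i (W α) y) / h) ^ 2) ≤ K

/-- The equation of the enlarged system. -/
def Eq1 (n : ℕ) [NeZero n] : Prop :=
  ∀ (ι : Type) [Fintype ι] (r : ℝ) (a : Fin n → Fin n → En n → ℝ) (W : ι → En n → ℝ),
    Ell r a → (∀ α, ContDiffOn ℝ ∞ (W α) (Uh r)) → EQN r a W → EQN r a (W1 W)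

theorem shift_mem {r r' δ : ℝ} (h1 : r' + δ ≤ r) {t : Fin n} (ht : t ≠ 0) {y : En n}
    (hy : y ∈ Uh r') {h : ℝ} (h0 : 0 ≤ h) (hδ : h < δ) : y + h • ee t ∈ Uh r := by
  refine ⟨?_, fun i => ?_⟩
  · have := hy.1
    simpa [ee, PiLp.single_apply, ht.symm] using this
  · have h2 := hy.2 i
    by_cases hi : i = t
    · have h3 : (y + h • ee t) i = y i + h := by simp [ee, hi]
      rw [h3]
      refine (abs_add_le _ _).trans_lt ?_
      rw [abs_of_nonneg h0]; linarith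
    · have h3 : (y + h • ee t) i = y i := by simp [ee, hi]
      rw [h3]; linarith

theorem shift_zero {t : Fin n} (ht : t ≠ 0) (y : En n) (h : ℝ) : (y + h • ee t) 0 = y 0 := by
  simp [ee, ht.symm]

/-- The lower integral of a translate. -/
theorem lint_shift {S T : Set (En n)} (hS : MeasurableSet S) (hT : MeasurableSet T) (v : En n)
    (hST : ∀ y ∈ S, y + v ∈ T) (g : En n → ℝ≥0∞) :
    ∫⁻ y in S, g (y + v) ≤ ∫⁻ y in T, g y := by
  rw [← lintegral_indicator hS, ← lintegral_indicator hT,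
    ← lintegral_add_right_eq_self (T.indicator g) v]
  refine lintegral_mono fun y => ?_
  by_cases hy : y ∈ S
  · rw [indicator_of_mem hy, indicator_of_mem (hST y hy)]
  · rw [indicator_of_notMem hy]; exact zero_le

theorem sm_one {U : Set (En n)} {f : En n → ℝ} (h : ContDiffOn ℝ ∞ f U) : ContDiffOn ℝ 1 f U :=
  h.of_le (by exact_mod_cast le_top)

/-- The translate is smooth. -/
theorem sm_shift {r r' δ : ℝ} (h1 : r' + δ ≤ r) {t : Fin n} (ht : t ≠ 0) {f : En n → ℝ}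
    (hf : ContDiffOn ℝ ∞ f (Uh r)) {h : ℝ} (h0 : 0 ≤ h) (hδ : h < δ) :
    ContDiffOn ℝ ∞ (fun y => f (y + h • ee t)) (Uh r') :=
  hf.comp (by fun_prop) fun _ hy => shift_mem h1 ht hy h0 hδ

theorem meas_S (r e : ℝ) : MeasurableSet (Uh (n := n) r ∩ {y | y 0 < e}) :=
  ((isOpen_U r).inter (isOpen_lt (by fun_prop) continuous_const)).measurableSet

/-- The difference quotient of a function with trace zero has trace zero. -/
theorem tr_dq {r r' δ : ℝ} (h1 : r' + δ ≤ r) (hδ0 : 0 < δ) {t : Fin n} (ht : t ≠ 0)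
    {f : En n → ℝ} (hf : ContDiffOn ℝ ∞ f (Uh r)) {C : ℝ≥0}
    (hC : ∀ e > 0, ∫⁻ y in Uh r ∩ {y | y 0 < e}, ENNReal.ofReal (f y ^ 2) ≤
      C * ENNReal.ofReal (e ^ 2)) {h : ℝ} (h0 : 0 < h) (hδ : h < δ) :
    R2.H850.DM.Tr r' (fun y => (f (y + h • ee t) - f y) / h) := by
  have hrr : r' ≤ r := by linarith
  refine ⟨Real.toNNReal (2 / h ^ 2) * (C + C), fun e he => ?_⟩
  change ∫⁻ y in Uh r' ∩ {y | y 0 < e}, _ ≤ _
  have hcf : ContinuousOn f (Uh r') := hf.continuousOn.mono (U_mono hrr)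
  have hm : AEMeasurable (fun y => ENNReal.ofReal (f y ^ 2))
      (volume.restrict (Uh r' ∩ {y | y 0 < e})) :=
    (((hcf.mono inter_subset_left).pow 2).aemeasurable (meas_S r' e)).ennreal_ofReal
  calc ∫⁻ y in Uh r' ∩ {y | y 0 < e}, ENNReal.ofReal (((f (y + h • ee t) - f y) / h) ^ 2)
      ≤ ∫⁻ y in Uh r' ∩ {y | y 0 < e}, ENNReal.ofReal (2 / h ^ 2) *
          (ENNReal.ofReal (f (y + h • ee t) ^ 2) + ENNReal.ofReal (f y ^ 2)) := by
        refine lintegral_mono fun y => ?_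
        rw [← ENNReal.ofReal_add (sq_nonneg _) (sq_nonneg _),
          ← ENNReal.ofReal_mul (by positivity)]
        refine ENNReal.ofReal_le_ofReal ?_
        rw [div_pow, div_mul_eq_mul_div]
        refine div_le_div_of_nonneg_right ?_ (by positivity)
        nlinarith [sq_nonneg (f (y + h • ee t) + f y)]
    _ = ENNReal.ofReal (2 / h ^ 2) * ((∫⁻ y in Uh r' ∩ {y | y 0 < e},
          ENNReal.ofReal (f (y + h • ee t) ^ 2)) + ∫⁻ y in Uh r' ∩ {y | y 0 < e},
          ENNReal.ofReal (f y ^ 2)) := by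
        rw [lintegral_const_mul' _ _ ENNReal.ofReal_ne_top, lintegral_add_right' _ hm]
    _ ≤ ENNReal.ofReal (2 / h ^ 2) * (C * ENNReal.ofReal (e ^ 2) + C * ENNReal.ofReal (e ^ 2)) := by
        gcongr
        · refine (lint_shift (meas_S r' e) (meas_S r e) (h • ee t) (fun y hy => ⟨shift_mem h1 ht
            hy.1 h0.le hδ, ?_⟩) (fun y => ENNReal.ofReal (f y ^ 2))).trans (hC e he)
          change (y + h • ee t) 0 < e
          rw [shift_zero ht]; exact hy.2
        · exact (lintegral_mono_set (inter_subset_inter_left _ (U_mono hrr))).trans (hC e he)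
    _ = _ := by
        rw [← add_mul, ← mul_assoc]
        congr 1

/-- The trace of a tangential derivative. -/
theorem tr_dt {r r' δ : ℝ} (hr' : 0 < r') (h1 : r' + δ ≤ r) (hδ0 : 0 < δ) {t : Fin n} (ht : t ≠ 0)
    {f : En n → ℝ} (hf : ContDiffOn ℝ ∞ f (Uh r)) {C : ℝ≥0}
    (hC : ∀ e > 0, ∫⁻ y in Uh r ∩ {y | y 0 < e}, ENNReal.ofReal (f y ^ 2) ≤
      C * ENNReal.ofReal (e ^ 2)) {K : ℝ≥0∞}
    (hK : ∀ h, 0 < h → h < δ → ∫⁻ y in Uh r',
      ENNReal.ofReal (((dd 0 f (y + h • ee t) - dd 0 f y) / h) ^ 2) ≤ K) {e : ℝ} (he : 0 < e) :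
    ∫⁻ y in Uh r' ∩ {y | y 0 < e}, ENNReal.ofReal (dd t f y ^ 2) ≤
      ENNReal.ofReal (2 * e ^ 2) * K := by
  have hrr : r' ≤ r := by linarith
  refine R2.H850.DM.dq_fatou (isOpen_U r) (sm_one hf) (meas_S r' e)
    (inter_subset_left.trans (U_mono hrr)) hδ0
    (fun y hy h h0 hδ => shift_mem h1 ht hy.1 h0.le hδ) (fun h h0 hδ => ?_)
  have hs := sm_shift h1 ht hf h0.le hδ
  have hf' : ContDiffOn ℝ ∞ f (Uh r') := hf.mono (U_mono hrr)
  have hw : ContDiffOn ℝ ∞ (fun y => (f (y + h • ee t) - f y) / h) (Uh r') :=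
    (hs.sub hf').div_const h
  have H := R2.H850.DM.hardy_tr hr' (sm_one hw) (tr_dq h1 hδ0 ht hf hC h0 hδ) he
  refine H.trans ?_
  gcongr
  refine le_trans ?_ (hK h h0 hδ)
  refine (lintegral_mono_set inter_subset_left).trans (le_of_eq ?_)
  refine setLIntegral_congr_fun (isOpen_U r').measurableSet fun y hy => ?_
  have e1 : DifferentiableAt ℝ (fun y => f (y + h • ee t)) y := diffAt_of_smooth (isOpen_U r') hs hy
  have e2 : DifferentiableAt ℝ f y := diffAt_of_smooth (isOpen_U r') hf' hy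
  have e3 : fderiv ℝ (fun y => (f (y + h • ee t) - f y) / h) y (ee 0) =
      (dd 0 f (y + h • ee t) - dd 0 f y) / h := by
    have e4 : fderiv ℝ (fun y => (f (y + h • ee t) - f y) / h) y =
        h⁻¹ • (fderiv ℝ (fun y => f (y + h • ee t)) y - fderiv ℝ f y) := by
      have : (fun y => (f (y + h • ee t) - f y) / h) =
          fun y => h⁻¹ • (f (y + h • ee t) - f y) := by
        funext y; rw [smul_eq_mul, div_eq_inv_mul]
      have e5 : DifferentiableAt ℝ (fun y => f (y + h • ee t) - f y) y := e1.sub e2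
      rw [this, fderiv_fun_const_smul e5, fderiv_fun_sub e1 e2]
    rw [e4, fderiv_comp_add_right]
    simp only [smul_apply, sub_apply, smul_eq_mul, dd]
    rw [div_eq_inv_mul]
  change ENNReal.ofReal (fderiv ℝ (fun y => (f (y + h • ee t) - f y) / h) y (ee 0) ^ 2) = _
  rw [e3]

/-- A square integrable function. -/
theorem memLp_of_lint {U : Set (En n)} (hU : IsOpen U) {f : En n → ℝ} (hf : ContinuousOn f U)
    {K : ℝ≥0∞} (hK : K ≠ ⊤) (h : ∫⁻ y in U, ENNReal.ofReal (f y ^ 2) ≤ K) :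
    MemLp f 2 (volume.restrict U) := by
  have hm : AEStronglyMeasurable f (volume.restrict U) := hf.aestronglyMeasurable hU.measurableSet
  rw [memLp_two_iff_integrable_sq hm]
  refine ⟨hm.pow 2, ?_⟩
  rw [hasFiniteIntegral_iff_ofReal (Eventually.of_forall fun y => sq_nonneg _)]
  exact h.trans_lt (lt_top_iff_ne_top.2 hK)

theorem eqn_mono {ι : Type} [Fintype ι] {r r' : ℝ} (hr : r' ≤ r) {a : Fin n → Fin n → En n → ℝ}
    {W : ι → En n → ℝ} (h : EQN r a W) : EQN r' a W := by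
  obtain ⟨B, C, F, hB, hC, hF, he⟩ := h
  exact ⟨B, C, F, fun α β i => cf_mono hr (hB α β i), fun α β => cf_mono hr (hC α β),
    fun α => cf_mono hr (hF α), fun α y hy => he α y (U_mono hr hy)⟩

/-- Row 6. -/
theorem row6_of (hD : DqB n) (hE1 : Eq1 n) : Row6 n := by
  intro ι _ a W r r' hE hW hr hr'
  have hrr := hr.le
  have hl2 : ∀ α, MemLp (W α) 2 (volume.restrict (Uh r')) := fun α =>
    MemLp.mono_measure (Measure.restrict_mono (U_mono hrr) le_rfl) (hW.l2 α)
  have hd2 : ∀ i α, MemLp (dd i (W α)) 2 (volume.restrict (Uh r')) := fun i α =>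
    MemLp.mono_measure (Measure.restrict_mono (U_mono hrr) le_rfl) (hW.d2 i α)
  have hdsm : ∀ i α, ContDiffOn ℝ ∞ (dd i (W α)) (Uh r) := fun i α =>
    pdv_smooth ee (isOpen_U r) (hW.sm α) i
  obtain ⟨C0, hC0⟩ := hW.tr
  refine ⟨?_, ?_, ?_, ?_, ?_⟩
  · intro p
    by_cases hp : p.1 = 0
    · simp only [W1, hp, if_true]; exact (hW.sm p.2).mono (U_mono hrr)
    · simp only [W1, hp, if_false]; exact (hdsm p.1 p.2).mono (U_mono hrr)
  · intro p
    by_cases hp : p.1 = 0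
    · simp only [W1, hp, if_true]; exact hl2 p.2
    · simp only [W1, hp, if_false]; exact hd2 p.1 p.2
  · intro i p
    by_cases hp : p.1 = 0
    · simp only [W1, hp, if_true]; exact hd2 i p.2
    · simp only [W1, hp, if_false]
      obtain ⟨K, hK, δ, hδ, h1, hq⟩ := hD ι r r' a W hE hW hr' hr p.1 hp
      have h2 : ∫⁻ y in Uh r', ENNReal.ofReal (fderiv ℝ (dd i (W p.2)) y (ee p.1) ^ 2) ≤ K :=
        R2.H850.DM.dq_fatou (isOpen_U r) (sm_one (hdsm i p.2)) (isOpen_U r').measurableSet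
          (U_mono hrr) hδ (fun y hy h h0 hh => shift_mem h1 hp hy h0.le hh)
          (fun h h0 hh => hq h h0 hh i p.2)
      have hsm : ContDiffOn ℝ ∞ (dd p.1 (dd i (W p.2))) (Uh r') :=
        (pdv_smooth ee (isOpen_U r) (hdsm i p.2) p.1).mono (U_mono hrr)
      have h3 : MemLp (dd p.1 (dd i (W p.2))) 2 (volume.restrict (Uh r')) :=
        memLp_of_lint (isOpen_U r') hsm.continuousOn hK h2
      refine MemLp.ae_eq (ae_restrict_of_forall_mem (isOpen_U r').measurableSet fun y hy => ?_) h3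
      exact pdv_comm ee (isOpen_U r) (hW.sm p.2) p.1 i (U_mono hrr hy)
  · have key : ∀ p : Fin n × ι, ∃ C : ℝ≥0, ∀ e > 0, ∫⁻ y in Uh r' ∩ {y | y 0 < e},
        ENNReal.ofReal (W1 W p y ^ 2) ≤ C * ENNReal.ofReal (e ^ 2) := by
      intro p
      by_cases hp : p.1 = 0
      · refine ⟨C0, fun e he => ?_⟩
        simp only [W1, hp, if_true]
        exact (lintegral_mono_set (inter_subset_inter_left _ (U_mono hrr))).trans (hC0 p.2 e he)
      · obtain ⟨K, hK, δ, hδ, h1, hq⟩ := hD ι r r' a W hE hW hr' hr p.1 hp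
        refine ⟨2 * K.toNNReal, fun e he => ?_⟩
        simp only [W1, hp, if_false]
        refine (tr_dt hr' h1 hδ hp (hW.sm p.2) (hC0 p.2) (fun h h0 hh => hq h h0 hh 0 p.2)
          he).trans (le_of_eq ?_)
        rw [ENNReal.coe_mul, ENNReal.coe_toNNReal hK, ENNReal.ofReal_mul (by norm_num)]
        simp only [ENNReal.ofReal_ofNat, ENNReal.coe_ofNat]
        ring
    choose C hC using key
    refine ⟨∑ p, C p, fun p e he => (hC p e he).trans ?_⟩
    gcongr
    exact Finset.single_le_sum (f := C) (fun _ _ => zero_le) (Finset.mem_univ p)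
  · exact eqn_mono hrr (hE1 ι r a W hE hW.sm hW.eqn)

end Loc

end

end Vale.Agent.P088.R2.H856.DM
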