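import Vale.Agent.P088.R2.H856.DM.LD
import Vale.Agent.P088.R2.H380.DM.Defs

/-! Row 7: all derivatives are square integrable, for all systems of the class. -/

set_option autoImplicit false

namespace Vale.Agent.P088.R2.H856.DM

open Set Filter Topology MeasureTheory
open scoped ContDiff NNReal ENNReal

noncomputable section

/-! ### bundled version of `LD` -/

section Sd

variable {X : Type*} [NormedAddCommGroup X] [NormedSpace ℝ X] {J : Type*} [MeasurableSpace X]
  [BorelSpace X]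

/-- Smooth on `U` with square integrable derivatives up to order `k`. -/
structure Sd (e : J → X) (μ : Measure X) (U : Set X) (k : ℕ) (v : X → ℝ) : Prop where
  sm : ContDiffOn ℝ ∞ v U
  ld : LD e μ U k v

variable {e : J → X} {μ : Measure X} {U : Set X}

omit [BorelSpace X] in
theorem LD.neg {k : ℕ} : ∀ {v : X → ℝ}, LD e μ U k v → LD e μ U k (fun y => - v y) := by
  have hn : ∀ (v : X → ℝ) (i : J), pdv e i (fun y => - v y) = fun y => - pdv e i v y := by
    intro v i; funext y; simp [pdv, fderiv_fun_neg]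
  induction k with
  | zero => intro v h; exact MemLp.neg h
  | succ k ih =>
    intro v h
    refine ⟨MemLp.neg h.1, fun i => ?_⟩
    rw [hn]; exact ih (h.2 i)

theorem Sd.add (hU : IsOpen U) {k : ℕ} {v w : X → ℝ} (h : Sd e μ U k v) (h' : Sd e μ U k w) :
    Sd e μ U k (fun y => v y + w y) :=
  ⟨h.sm.add h'.sm, LD.add hU h.sm h'.sm h.ld h'.ld⟩

omit [BorelSpace X] in
theorem Sd.neg {k : ℕ} {v : X → ℝ} (h : Sd e μ U k v) :
    Sd e μ U k (fun y => - v y) := ⟨h.sm.neg, h.ld.neg⟩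

theorem Sd.sub (hU : IsOpen U) {k : ℕ} {v w : X → ℝ} (h : Sd e μ U k v) (h' : Sd e μ U k w) :
    Sd e μ U k (fun y => v y - w y) := by
  simpa [sub_eq_add_neg] using h.add hU h'.neg

theorem Sd.sum (hU : IsOpen U) {k : ℕ} {T : Type*} (s : Finset T) {v : T → X → ℝ}
    (h : ∀ t ∈ s, Sd e μ U k (v t)) : Sd e μ U k (fun y => ∑ t ∈ s, v t y) :=
  ⟨ContDiffOn.sum fun i hi => (h i hi).sm, LD.sum hU s (fun t ht => (h t ht).sm)
    (fun t ht => (h t ht).ld)⟩

theorem Sd.mul (hU : IsOpen U) {k : ℕ} {c v : X → ℝ} (hc : BB e U c) (h : Sd e μ U k v) :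
    Sd e μ U k (fun y => c y * v y) := ⟨hc.sm.mul h.sm, LD.mul hU hc h.sm h.ld⟩

theorem Sd.congr (hU : IsOpen U) {k : ℕ} {v w : X → ℝ} (h : Sd e μ U k v) (hvw : EqOn v w U) :
    Sd e μ U k w := ⟨h.sm.congr hvw.symm, h.ld.congr hU hvw⟩

theorem Sd.pd (hU : IsOpen U) {k : ℕ} {v : X → ℝ} (h : Sd e μ U (k + 1) v) (i : J) :
    Sd e μ U k (pdv e i v) := ⟨pdv_smooth e hU h.sm i, h.ld.2 i⟩

omit [BorelSpace X] in
theorem Sd.pred {k : ℕ} {v : X → ℝ} (h : Sd e μ U (k + 1) v) : Sd e μ U k v :=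
  ⟨h.sm, h.ld.pred⟩

theorem Sd.of_bb (hU : IsOpen U) (hμ : μ U ≠ ⊤) {k : ℕ} {c : X → ℝ} (hc : BB e U c) :
    Sd e μ U k c := ⟨hc.sm, LD.of_bb hU hμ hc⟩

end Sd

open Vale.Agent.P088.DC

namespace Loc

variable {n : ℕ} [NeZero n]

/-! ### geometry of the boxes -/

theorem isOpen_U (r : ℝ) : IsOpen (Uh (n := n) r) := by
  have h : Uh (n := n) r = {y | 0 < y 0} ∩ ⋂ i, {y | |y i| < r} := by
    ext y; simp [Uh]
  rw [h]
  refine IsOpen.inter (isOpen_lt continuous_const (by fun_prop)) ?_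
  exact isOpen_iInter_of_finite fun i => isOpen_lt (by fun_prop) continuous_const

theorem U_mono {r r' : ℝ} (h : r' ≤ r) : Uh (n := n) r' ⊆ Uh r :=
  fun _ hy => ⟨hy.1, fun i => (hy.2 i).trans_le h⟩

theorem Hb_mono {r r' : ℝ} (h : r' ≤ r) : Hb (n := n) r' ⊆ Hb r :=
  fun _ hy => ⟨hy.1, fun i => (hy.2 i).trans_le h⟩

theorem U_sub_Hb (r : ℝ) : Uh (n := n) r ⊆ Hb r := fun _ hy => ⟨hy.1.le, hy.2⟩

theorem Hb_sub_closure (r : ℝ) : Hb (n := n) r ⊆ closure (Uh r) := by
  intro y hy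
  have hc : Continuous fun t : ℝ => y + t • ee (0 : Fin n) := by fun_prop
  have ht : Tendsto (fun t : ℝ => y + t • ee (0 : Fin n)) (𝓝[>] 0) (𝓝 y) := by
    have := hc.tendsto 0
    simp only [zero_smul, add_zero] at this
    exact this.mono_left nhdsWithin_le_nhds
  refine mem_closure_of_tendsto ht ?_
  have hopen : IsOpen {z : En n | ∀ i, |z i| < r} := by
    have h : {z : En n | ∀ i, |z i| < r} = ⋂ i, {y | |y i| < r} := by ext y; simp
    rw [h]
    exact isOpen_iInter_of_finite fun i => isOpen_lt (by fun_prop) continuous_const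
  have h1 : ∀ᶠ t in 𝓝[>] (0 : ℝ), y + t • ee (0 : Fin n) ∈ {z : En n | ∀ i, |z i| < r} :=
    ht.eventually (hopen.mem_nhds hy.2)
  filter_upwards [h1, self_mem_nhdsWithin] with t h2 h3
  refine ⟨?_, h2⟩
  have h4 : (0 : ℝ) ≤ y 0 := hy.1
  have h5 : (0 : ℝ) < t := h3
  simp only [PiLp.add_apply, PiLp.smul_apply, ee, PiLp.single_apply, if_true,
    smul_eq_mul, mul_one]
  linarith

theorem convex_Hb (r : ℝ) : Convex ℝ (Hb (n := n) r) := by
  intro x hx y hy a b ha hb hab
  refine ⟨?_, fun i => ?_⟩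
  · have h1 := hx.1
    have h2 := hy.1
    simp only [PiLp.add_apply, PiLp.smul_apply, smul_eq_mul]
    positivity
  · have h1 := hx.2 i
    have h2 := hy.2 i
    simp only [PiLp.add_apply, PiLp.smul_apply, smul_eq_mul]
    have h3 : |a * x i + b * y i| ≤ a * |x i| + b * |y i| := by
      refine (abs_add_le _ _).trans ?_
      rw [abs_mul, abs_mul, abs_of_nonneg ha, abs_of_nonneg hb]
    refine h3.trans_lt ?_
    rcases ha.eq_or_lt with h0 | h0
    · have hb1 : b = 1 := by linarith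
      rw [← h0, hb1]; linarith
    · have h4 : a * |x i| < a * r := mul_lt_mul_of_pos_left h1 h0
      have h5 : b * |y i| ≤ b * r := mul_le_mul_of_nonneg_left h2.le hb
      have h6 : a * r + b * r = r := by rw [← add_mul, hab, one_mul]
      linarith

theorem uniqueDiffOn_Hb (r : ℝ) : UniqueDiffOn ℝ (Hb (n := n) r) := by
  rcases le_or_gt r 0 with hr | hr
  · have : Hb (n := n) r = ∅ := by
      ext y
      simp only [mem_empty_iff_false, iff_false]
      intro hy
      exact absurd (hy.2 0) (not_lt.2 (hr.trans (abs_nonneg _)))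
    rw [this]; exact uniqueDiffOn_empty
  · refine uniqueDiffOn_convex (convex_Hb r) ?_
    have hsub : Uh (n := n) r ⊆ interior (Hb r) :=
      interior_maximal (U_sub_Hb r) (isOpen_U r)
    refine Set.Nonempty.mono hsub ⟨WithLp.toLp 2 fun _ => r / 2, ?_, fun i => ?_⟩
    · simp [hr]
    · simp only
      rw [abs_of_pos (by linarith)]; linarith

theorem isCompact_Kb (r : ℝ) : IsCompact {y : En n | 0 ≤ y 0 ∧ ∀ i, |y i| ≤ r} := by
  refine Metric.isCompact_of_isClosed_isBounded ?_ ?_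
  · have h : {y : En n | 0 ≤ y 0 ∧ ∀ i, |y i| ≤ r} = {y | 0 ≤ y 0} ∩ ⋂ i, {y | |y i| ≤ r} := by
      ext y; simp
    rw [h]
    refine IsClosed.inter (isClosed_le continuous_const (by fun_prop)) ?_
    exact isClosed_iInter fun i => isClosed_le (by fun_prop) continuous_const
  · rw [isBounded_iff_forall_norm_le]
    refine ⟨√(∑ _i : Fin n, r ^ 2), fun y hy => ?_⟩
    rw [EuclideanSpace.norm_eq]
    refine Real.sqrt_le_sqrt (Finset.sum_le_sum fun i _ => ?_)
    rw [Real.norm_eq_abs]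
    exact pow_le_pow_left₀ (abs_nonneg _) (hy.2 i) 2

theorem vol_U_ne_top (r : ℝ) : volume (Uh (n := n) r) ≠ ⊤ := by
  refine ne_top_of_le_ne_top ((isCompact_Kb (n := n) r).measure_lt_top (μ := volume)).ne
    (measure_mono ?_)
  exact fun y hy => ⟨hy.1.le, fun i => (hy.2 i).le⟩

/-! ### coefficients -/

theorem cf_smooth {r : ℝ} {f : En n → ℝ} (h : Cf r f) : ContDiffOn ℝ ∞ f (Uh r) := by
  obtain ⟨g, hg, he⟩ := h
  exact (hg.mono (U_sub_Hb r)).congr he

theorem cf_mono {r r' : ℝ} (hr : r' ≤ r) {f : En n → ℝ} (h : Cf r f) : Cf r' f := by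
  obtain ⟨g, hg, he⟩ := h
  exact ⟨g, hg.mono (Hb_mono hr), he.mono (U_mono hr)⟩

theorem cf_dd {r : ℝ} {f : En n → ℝ} (h : Cf r f) (i : Fin n) : Cf r (dd i f) := by
  obtain ⟨g, hg, he⟩ := h
  refine ⟨fun y => fderivWithin ℝ g (Hb r) y (ee i), ?_, ?_⟩
  · exact (hg.fderivWithin (uniqueDiffOn_Hb r) (m := ∞) (by simp)).clm_apply contDiffOn_const
  · intro y hy
    have h1 : Hb (n := n) r ∈ 𝓝 y := mem_of_superset ((isOpen_U r).mem_nhds hy) (U_sub_Hb r)
    have h2 : f =ᶠ[𝓝 y] g := by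
      filter_upwards [(isOpen_U r).mem_nhds hy] with z hz using he hz
    simp only [dd, h2.fderiv_eq, fderivWithin_of_mem_nhds h1]

theorem cf_bdd {r r' : ℝ} (hr : r' < r) {f : En n → ℝ} (h : Cf r f) :
    ∃ M : ℝ, ∀ y ∈ Uh r', |f y| ≤ M := by
  obtain ⟨g, hg, he⟩ := h
  have hK : {y : En n | 0 ≤ y 0 ∧ ∀ i, |y i| ≤ r'} ⊆ Hb r :=
    fun y hy => ⟨hy.1, fun i => (hy.2 i).trans_lt hr⟩
  obtain ⟨M, hM⟩ := (isCompact_Kb r').exists_bound_of_continuousOn (hg.continuousOn.mono hK)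
  refine ⟨M, fun y hy => ?_⟩
  rw [he (U_mono hr.le hy)]
  exact hM y ⟨hy.1.le, fun i => (hy.2 i).le⟩

theorem cf_pdL {r : ℝ} (l : List (Fin n)) : ∀ {f : En n → ℝ}, Cf r f → Cf r (pdL ee l f) := by
  induction l with
  | nil => intro f h; exact h
  | cons i l ih => intro f h; exact ih (cf_dd h i)

theorem cf_bb {r r' : ℝ} (hr : r' < r) {f : En n → ℝ} (h : Cf r f) : BB ee (Uh r') f :=
  ⟨(cf_smooth h).mono (U_mono hr.le), fun l => cf_bdd hr (cf_pdL l h)⟩

theorem cf_inv {r : ℝ} {f : En n → ℝ} (h : Cf r f) {c : ℝ} (hc : 0 < c)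
    (hf : ∀ y ∈ Uh r, c ≤ f y) : Cf r (fun y => (f y)⁻¹) := by
  obtain ⟨g, hg, he⟩ := h
  have hpos : ∀ y ∈ Hb (n := n) r, c ≤ g y := by
    intro y hy
    have h1 : Tendsto g (𝓝[Uh r] y) (𝓝 (g y)) :=
      (hg.continuousOn y hy).mono (U_sub_Hb r)
    have : NeBot (𝓝[Uh r] y) := mem_closure_iff_nhdsWithin_neBot.1 (Hb_sub_closure r hy)
    refine ge_of_tendsto h1 ?_
    filter_upwards [self_mem_nhdsWithin] with z hz
    rw [← he hz]; exact hf z hz
  refine ⟨fun y => (g y)⁻¹, hg.inv fun y hy => (hc.trans_le (hpos y hy)).ne', ?_⟩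
  intro y hy
  simp only [he hy]

theorem ell_low {r : ℝ} {a : Fin n → Fin n → En n → ℝ} (h : Ell r a) :
    ∃ c > (0 : ℝ), ∀ y ∈ Uh r, c ≤ a 0 0 y := by
  obtain ⟨l, hl, hp⟩ := h.pos
  refine ⟨l, hl, fun y hy => ?_⟩
  have h1 := hp y hy (Pi.single 0 1)
  have h2 : ∑ i : Fin n, (Pi.single (0 : Fin n) (1 : ℝ) : Fin n → ℝ) i ^ 2 = 1 := by
    rw [Finset.sum_eq_single (0 : Fin n)]
    · simp
    · intro b _ hb; simp [hb]
    · simp
  have h3 : ∑ i, ∑ j, a i j y * (Pi.single (0 : Fin n) (1 : ℝ) : Fin n → ℝ) i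
      * (Pi.single (0 : Fin n) (1 : ℝ) : Fin n → ℝ) j = a 0 0 y := by
    rw [Finset.sum_eq_single (0 : Fin n), Finset.sum_eq_single (0 : Fin n)]
    · simp
    · intro b _ hb; simp [hb]
    · simp
    · intro b _ hb; simp [hb]
    · simp
  rw [h2, h3, mul_one] at h1
  exact h1

theorem ell_mono {r r' : ℝ} (hr : r' ≤ r) {a : Fin n → Fin n → En n → ℝ} (h : Ell r a) :
    Ell r' a := by
  refine ⟨fun i j => cf_mono hr (h.cf i j), ?_⟩
  obtain ⟨l, hl, hp⟩ := h.pos
  exact ⟨l, hl, fun y hy => hp y (U_mono hr hy)⟩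

/-- The enlarged system: all functions together with their tangential derivatives. -/
def W1 {ι : Type} (W : ι → En n → ℝ) : Fin n × ι → En n → ℝ :=
  fun p => if p.1 = 0 then W p.2 else dd p.1 (W p.2)

/-- Row 7, from row 6. -/
theorem row7_of {a : Fin n → Fin n → En n → ℝ}
    (h6 : ∀ {ι : Type} [Fintype ι] {W : ι → En n → ℝ} {r r' : ℝ}, Ell r a → Cl r a W → r' < r →
      0 < r' → Cl r' a (W1 W)) (k : ℕ) :
    ∀ {ι : Type} [Fintype ι] {W : ι → En n → ℝ} {r r' : ℝ}, Ell r a → Cl r a W → r' < r →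
      0 < r' → ∀ al, Sd ee volume (Uh r') k (W al) := by
  induction k with
  | zero =>
    intro ι _ W r r' hE hW hr hr' al
    exact ⟨(hW.sm al).mono (U_mono hr.le),
      MemLp.mono_measure (Measure.restrict_mono (U_mono hr.le) le_rfl) (hW.l2 al)⟩
  | succ k ih =>
    intro ι _ W r r' hE hW hr hr' al
    have hU : IsOpen (Uh (n := n) r') := isOpen_U r'
    obtain ⟨s, hs1, hs2⟩ := exists_between hr
    have hs : 0 < s := hr'.trans hs1
    have hW1 := h6 hE hW hs2 hs
    have hE1 : Ell s a := ell_mono hs2.le hE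
    have hI : ∀ p, Sd ee volume (Uh r') k (W1 W p) := ih hE1 hW1 hs1 hr'
    have hT : ∀ (j : Fin n) (b : ι), j ≠ 0 → Sd ee volume (Uh r') k (dd j (W b)) := by
      intro j b hj
      have := hI (j, b)
      simpa [W1, hj] using this
    have hI0 : ∀ b : ι, Sd ee volume (Uh r') k (W b) := by
      intro b
      have := hI (0, b)
      simpa [W1] using this
    have hsm : ∀ b, ContDiffOn ℝ ∞ (W b) (Uh r') := fun b => (hW.sm b).mono (U_mono hr.le)
    have hd2 : ∀ i b, MemLp (dd i (W b)) 2 (volume.restrict (Uh r')) := fun i b =>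
      MemLp.mono_measure (Measure.restrict_mono (U_mono hr.le) le_rfl) (hW.d2 i b)
    have hl2 : ∀ b, MemLp (W b) 2 (volume.restrict (Uh r')) := fun b =>
      MemLp.mono_measure (Measure.restrict_mono (U_mono hr.le) le_rfl) (hW.l2 b)
    refine ⟨hsm al, hl2 al, fun i => ?_⟩
    by_cases hi : i ≠ 0
    · exact (hT i al hi).ld
    push Not at hi
    subst hi
    cases k with
    | zero => exact hd2 0 al
    | succ k =>
      refine ⟨hd2 0 al, fun j => ?_⟩
      by_cases hj : j ≠ 0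
      · have h1 := (hT j al hj).pd hU 0
        exact (h1.congr hU (pdv_comm ee hU (hsm al) 0 j)).ld
      push Not at hj
      subst hj
      -- the normal second derivative, by the equation
      obtain ⟨B, C, F, hB, hC, hF, heq⟩ := hW.eqn
      obtain ⟨c, hc, hlow⟩ := ell_low hE
      have hinv : BB ee (Uh r') (fun y => (a 0 0 y)⁻¹) := cf_bb hr (cf_inv (hE.cf 0 0) hc hlow)
      have hS : Sd ee volume (Uh r') k (fun y => (∑ i, ∑ b, B al b i y * dd i (W b) y
          + ∑ b, C al b y * W b y + F al y)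
          - ∑ p ∈ Finset.univ.erase ((0, 0) : Fin n × Fin n),
            a p.1 p.2 y * dd p.1 (dd p.2 (W al)) y) := by
        refine Sd.sub hU (Sd.add hU (Sd.add hU ?_ ?_) ?_) ?_
        · refine Sd.sum hU _ fun i _ => Sd.sum hU _ fun b _ => ?_
          exact Sd.mul hU (cf_bb hr (hB al b i)) ((hI0 b).pd hU i)
        · refine Sd.sum hU _ fun b _ => ?_
          exact Sd.mul hU (cf_bb hr (hC al b)) (hI0 b).pred
        · exact Sd.of_bb hU (vol_U_ne_top r') (cf_bb hr (hF al))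
        · refine Sd.sum hU _ fun p hp => ?_
          refine Sd.mul hU (cf_bb hr (hE.cf _ _)) ?_
          by_cases h2 : p.2 ≠ 0
          · exact (hT p.2 al h2).pd hU p.1
          · push Not at h2
            have h1 : p.1 ≠ 0 := by
              intro h1
              exact (Finset.mem_erase.1 hp).1 (Prod.ext h1 h2)
            have h3 := (hT p.1 al h1).pd hU p.2
            exact h3.congr hU (pdv_comm ee hU (hsm al) p.2 p.1)
      have hfin := Sd.mul hU hinv hS
      refine (hfin.congr hU ?_).ld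
      intro y hy
      have hyr : y ∈ Uh r := U_mono hr.le hy
      have h0 : a 0 0 y ≠ 0 := (hc.trans_le (hlow y hyr)).ne'
      have h1 := heq al y hyr
      have h2 : ∑ i, ∑ j, a i j y * dd i (dd j (W al)) y = a 0 0 y * dd 0 (dd 0 (W al)) y
          + ∑ p ∈ Finset.univ.erase ((0, 0) : Fin n × Fin n),
            a p.1 p.2 y * dd p.1 (dd p.2 (W al)) y := by
        rw [← Finset.sum_product', Finset.univ_product_univ,
          ← Finset.add_sum_erase _ _ (Finset.mem_univ ((0, 0) : Fin n × Fin n))]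
      simp only
      rw [← h1, h2]
      change _ = dd 0 (dd 0 (W al)) y
      field_simp
      ring

theorem row7_list {a : Fin n → Fin n → En n → ℝ}
    (h6 : ∀ {ι : Type} [Fintype ι] {W : ι → En n → ℝ} {r r' : ℝ}, Ell r a → Cl r a W → r' < r →
      0 < r' → Cl r' a (W1 W))
    {ι : Type} [Fintype ι] {W : ι → En n → ℝ} {r r' : ℝ} (hE : Ell r a) (hW : Cl r a W)
    (hr : r' < r) (hr' : 0 < r') (al : ι) (l : List (Fin n)) :
    MemLp (pdL ee l (W al)) 2 (volume.restrict (Uh r')) :=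
  LD.list (fun k => (row7_of h6 k hE hW hr hr' al).ld) l

end Loc

end

end Vale.Agent.P088.R2.H856.DM
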