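import Vale.Agent.P088.MathlibUsed

/-! Square integrable derivatives up to order `k` on an open set, and the closure properties of
this class. -/

set_option autoImplicit false

namespace Vale.Agent.P088.R2.H856.DM

open Set Filter Topology MeasureTheory
open scoped ContDiff NNReal ENNReal

noncomputable section

variable {X : Type*} [NormedAddCommGroup X] [NormedSpace ℝ X] {J : Type*}

/-- The derivative in the direction `e i`. -/
def pdv (e : J → X) (i : J) (v : X → ℝ) : X → ℝ := fun y => fderiv ℝ v y (e i)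

/-- Iterated derivatives along a list. -/
def pdL (e : J → X) : List J → (X → ℝ) → X → ℝ
  | [], f => f
  | i :: l, f => pdL e l (pdv e i f)

theorem pdv_smooth (e : J → X) {U : Set X} (hU : IsOpen U) {v : X → ℝ}
    (hv : ContDiffOn ℝ ∞ v U) (i : J) : ContDiffOn ℝ ∞ (pdv e i v) U :=
  (hv.fderiv_of_isOpen hU (m := ∞) (by simp)).clm_apply contDiffOn_const

theorem diffAt_of_smooth {U : Set X} (hU : IsOpen U) {v : X → ℝ}
    (hv : ContDiffOn ℝ ∞ v U) {y : X} (hy : y ∈ U) : DifferentiableAt ℝ v y :=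
  (hv.contDiffAt (hU.mem_nhds hy)).differentiableAt (by simp)

theorem pdv_congr (e : J → X) {U : Set X} (hU : IsOpen U) {v w : X → ℝ} (h : EqOn v w U)
    (i : J) : EqOn (pdv e i v) (pdv e i w) U := by
  intro y hy
  have h1 : v =ᶠ[𝓝 y] w := by
    filter_upwards [hU.mem_nhds hy] with z hz using h hz
  simp only [pdv, h1.fderiv_eq]

theorem pdv_add (e : J → X) {U : Set X} (hU : IsOpen U) {v w : X → ℝ}
    (hv : ContDiffOn ℝ ∞ v U) (hw : ContDiffOn ℝ ∞ w U) (i : J) :
    EqOn (pdv e i (fun y => v y + w y)) (fun y => pdv e i v y + pdv e i w y) U := by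
  intro y hy
  have h := fderiv_fun_add (diffAt_of_smooth hU hv hy) (diffAt_of_smooth hU hw hy)
  simp only [pdv, h, add_apply]

theorem pdv_mul (e : J → X) {U : Set X} (hU : IsOpen U) {v w : X → ℝ}
    (hv : ContDiffOn ℝ ∞ v U) (hw : ContDiffOn ℝ ∞ w U) (i : J) :
    EqOn (pdv e i (fun y => v y * w y)) (fun y => v y * pdv e i w y + pdv e i v y * w y) U := by
  intro y hy
  have h := fderiv_fun_mul (diffAt_of_smooth hU hv hy) (diffAt_of_smooth hU hw hy)
  simp only [pdv, h, add_apply, smul_apply, smul_eq_mul]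
  ring

/-- Symmetry of the second derivatives. -/
theorem pdv_comm (e : J → X) {U : Set X} (hU : IsOpen U) {v : X → ℝ}
    (hv : ContDiffOn ℝ ∞ v U) (i j : J) :
    EqOn (pdv e i (pdv e j v)) (pdv e j (pdv e i v)) U := by
  intro y hy
  have hc : ContDiffAt ℝ ∞ v y := hv.contDiffAt (hU.mem_nhds hy)
  have hs : IsSymmSndFDerivAt ℝ v y := hc.isSymmSndFDerivAt (by
    rw [minSmoothness_of_isRCLikeNormedField]; exact ENat.LEInfty.out)
  have hd : DifferentiableAt ℝ (fderiv ℝ v) y :=
    ((hv.fderiv_of_isOpen hU (m := ∞) (by simp)).contDiffAt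
      (hU.mem_nhds hy)).differentiableAt (by simp)
  have key : ∀ i j : J, pdv e i (pdv e j v) y = fderiv ℝ (fderiv ℝ v) y (e i) (e j) := by
    intro i j
    have h1 : fderiv ℝ (pdv e j v) y = _ := fderiv_clm_apply hd (differentiableAt_const (e j))
    change fderiv ℝ (pdv e j v) y (e i) = _
    rw [h1]
    simp
  rw [key, key]
  exact hs.eq _ _

variable [MeasurableSpace X]

/-- All derivatives up to order `k` are square integrable on `U`. -/
def LD (e : J → X) (μ : Measure X) (U : Set X) : ℕ → (X → ℝ) → Prop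
  | 0, v => MemLp v 2 (μ.restrict U)
  | k + 1, v => MemLp v 2 (μ.restrict U) ∧ ∀ i, LD e μ U k (pdv e i v)

variable {e : J → X} {μ : Measure X} {U : Set X}

theorem LD.memLp {k : ℕ} {v : X → ℝ} (h : LD e μ U k v) : MemLp v 2 (μ.restrict U) := by
  cases k with
  | zero => exact h
  | succ k => exact h.1

theorem LD.pred {k : ℕ} : ∀ {v : X → ℝ}, LD e μ U (k + 1) v → LD e μ U k v := by
  induction k with
  | zero => intro v h; exact h.1
  | succ k ih => intro v h; exact ⟨h.1, fun i => ih (h.2 i)⟩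

theorem LD.mono {k k' : ℕ} (hk : k ≤ k') {v : X → ℝ} (h : LD e μ U k' v) : LD e μ U k v := by
  induction k', hk using Nat.le_induction with
  | base => exact h
  | succ m hm ih => exact ih h.pred

theorem LD.mono_set {V : Set X} (hV : V ⊆ U) {k : ℕ} : ∀ {v : X → ℝ}, LD e μ U k v →
    LD e μ V k v := by
  induction k with
  | zero => intro v h; exact MemLp.mono_measure (Measure.restrict_mono hV le_rfl) h
  | succ k ih =>
    intro v h
    exact ⟨MemLp.mono_measure (Measure.restrict_mono hV le_rfl) h.1, fun i => ih (h.2 i)⟩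

theorem LD.congr [OpensMeasurableSpace X] (hU : IsOpen U) {k : ℕ} :
    ∀ {v w : X → ℝ}, LD e μ U k v → EqOn v w U → LD e μ U k w := by
  induction k with
  | zero =>
    intro v w h hvw
    exact MemLp.ae_eq (ae_restrict_of_forall_mem hU.measurableSet hvw) h
  | succ k ih =>
    intro v w h hvw
    exact ⟨MemLp.ae_eq (ae_restrict_of_forall_mem hU.measurableSet hvw) h.1,
      fun i => ih (h.2 i) (pdv_congr e hU hvw i)⟩

theorem LD.add [OpensMeasurableSpace X] (hU : IsOpen U) {k : ℕ} :
    ∀ {v w : X → ℝ}, ContDiffOn ℝ ∞ v U → ContDiffOn ℝ ∞ w U → LD e μ U k v →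
      LD e μ U k w → LD e μ U k (fun y => v y + w y) := by
  induction k with
  | zero => intro v w _ _ h h'; exact MemLp.add h h'
  | succ k ih =>
    intro v w hv hw h h'
    refine ⟨MemLp.add h.1 h'.1, fun i => ?_⟩
    exact (ih (pdv_smooth e hU hv i) (pdv_smooth e hU hw i) (h.2 i) (h'.2 i)).congr hU
      (pdv_add e hU hv hw i).symm

theorem LD.zero [OpensMeasurableSpace X] (hU : IsOpen U) {k : ℕ} :
    LD e μ U k (fun _ => (0 : ℝ)) := by
  induction k with
  | zero => exact MemLp.zero
  | succ k ih =>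
    refine ⟨MemLp.zero, fun i => ih.congr hU ?_⟩
    intro y _
    simp [pdv]

theorem LD.sum [OpensMeasurableSpace X] (hU : IsOpen U) {k : ℕ} {T : Type*} (s : Finset T)
    {v : T → X → ℝ} (hv : ∀ t ∈ s, ContDiffOn ℝ ∞ (v t) U) (h : ∀ t ∈ s, LD e μ U k (v t)) :
    LD e μ U k (fun y => ∑ t ∈ s, v t y) := by
  classical
  induction s using Finset.induction_on with
  | empty => simpa using LD.zero hU
  | insert t s ht ih =>
    have h1 : ContDiffOn ℝ ∞ (fun y => ∑ t ∈ s, v t y) U :=
      ContDiffOn.sum fun i hi => hv i (Finset.mem_insert_of_mem hi)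
    have h2 := ih (fun t ht => hv t (Finset.mem_insert_of_mem ht))
      (fun t ht => h t (Finset.mem_insert_of_mem ht))
    have h3 := LD.add hU (hv t (Finset.mem_insert_self t s)) h1
      (h t (Finset.mem_insert_self t s)) h2
    refine h3.congr hU ?_
    intro y _
    simp only [Finset.sum_insert ht]

/-- A coefficient: smooth on `U`, all derivatives bounded on `U`. -/
structure BB (e : J → X) (U : Set X) (c : X → ℝ) : Prop where
  sm : ContDiffOn ℝ ∞ c U
  bd : ∀ l : List J, ∃ M : ℝ, ∀ y ∈ U, |pdL e l c y| ≤ M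

omit [MeasurableSpace X] in
theorem BB.pd (hU : IsOpen U) {c : X → ℝ} (h : BB e U c) (i : J) : BB e U (pdv e i c) :=
  ⟨pdv_smooth e hU h.sm i, fun l => h.bd (i :: l)⟩

theorem memLp_bdd_mul [BorelSpace X] (hU : IsOpen U) {c v : X → ℝ} (hc : BB e U c)
    (h : MemLp v 2 (μ.restrict U)) : MemLp (fun y => c y * v y) 2 (μ.restrict U) := by
  obtain ⟨M, hM⟩ := hc.bd []
  have hca : AEStronglyMeasurable c (μ.restrict U) :=
    hc.sm.continuousOn.aestronglyMeasurable hU.measurableSet
  refine MemLp.of_le_mul (c := M) h (hca.mul h.1) ?_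
  refine ae_restrict_of_forall_mem hU.measurableSet fun y hy => ?_
  rw [norm_mul]
  exact mul_le_mul_of_nonneg_right (hM y hy) (norm_nonneg _)

theorem LD.mul [BorelSpace X] (hU : IsOpen U) {k : ℕ} :
    ∀ {c v : X → ℝ}, BB e U c → ContDiffOn ℝ ∞ v U → LD e μ U k v →
      LD e μ U k (fun y => c y * v y) := by
  induction k with
  | zero => intro c v hc _ h; exact memLp_bdd_mul hU hc h
  | succ k ih =>
    intro c v hc hv h
    refine ⟨memLp_bdd_mul hU hc h.1, fun i => ?_⟩
    have h1 := ih hc (pdv_smooth e hU hv i) (h.2 i)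
    have h2 := ih (hc.pd hU i) hv h.pred
    have h3 := LD.add hU (hc.sm.mul (pdv_smooth e hU hv i)) ((hc.pd hU i).sm.mul hv) h1 h2
    exact h3.congr hU (pdv_mul e hU hc.sm hv i).symm

theorem LD.of_bb [BorelSpace X] (hU : IsOpen U) (hμ : μ U ≠ ⊤) {k : ℕ} :
    ∀ {c : X → ℝ}, BB e U c → LD e μ U k c := by
  have key : ∀ {c : X → ℝ}, BB e U c → MemLp c 2 (μ.restrict U) := by
    intro c hc
    obtain ⟨M, hM⟩ := hc.bd []
    have hca : AEStronglyMeasurable c (μ.restrict U) :=
      hc.sm.continuousOn.aestronglyMeasurable hU.measurableSet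
    have : IsFiniteMeasure (μ.restrict U) := ⟨by
      rw [Measure.restrict_apply_univ]; exact lt_of_le_of_ne le_top hμ⟩
    refine MemLp.of_bound hca M ?_
    exact ae_restrict_of_forall_mem hU.measurableSet fun y hy => hM y hy
  induction k with
  | zero => intro c hc; exact key hc
  | succ k ih => intro c hc; exact ⟨key hc, fun i => ih (hc.pd hU i)⟩

theorem LD.list {v : X → ℝ} (h : ∀ k, LD e μ U k v) (l : List J) :
    MemLp (pdL e l v) 2 (μ.restrict U) := by
  have key : ∀ (l : List J) (v : X → ℝ), LD e μ U l.length v →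
      MemLp (pdL e l v) 2 (μ.restrict U) := by
    intro l
    induction l with
    | nil => intro v h; exact h
    | cons i l ih => intro v h; exact ih _ (h.2 i)
  exact key l v (h _)

end

end Vale.Agent.P088.R2.H856.DM
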